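import Mathlib

namespace Vale.Agent.P340

universe u v

/-- Pseudo-expressions of a pure type system over a type `S` of sorts, with de Bruijn indices:
`lam A M` is the abstraction with domain `A` and body `M`, `pi A B` the product. -/
inductive Tm (S : Type u) : Type u
  | var : ℕ → Tm S
  | sort : S → Tm S
  | app : Tm S → Tm S → Tm S
  | lam : Tm S → Tm S → Tm S
  | pi : Tm S → Tm S → Tm S

namespace Tm

variable {S : Type u} {T : Type v}

/-- Shift by one every index that is at least the cutoff `c`. -/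
def lift : ℕ → Tm S → Tm S
  | c, var n => if n < c then var n else var (n + 1)
  | _, sort s => sort s
  | c, app M N => app (lift c M) (lift c N)
  | c, lam A M => lam (lift c A) (lift (c + 1) M)
  | c, pi A B => pi (lift c A) (lift (c + 1) B)

/-- `subst N k M` is `M` with index `k` replaced by `N` and the indices above `k` lowered. -/
def subst : Tm S → ℕ → Tm S → Tm S
  | N, k, var n => if n < k then var n else if n = k then N else var (n - 1)
  | _, _, sort s => sort s
  | N, k, app M P => app (subst N k M) (subst N k P)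
  | N, k, lam A M => lam (subst N k A) (subst (lift 0 N) (k + 1) M)
  | N, k, pi A B => pi (subst N k A) (subst (lift 0 N) (k + 1) B)

/-- Rename the sorts of an expression. -/
def map (g : S → T) : Tm S → Tm T
  | var n => var n
  | sort s => sort (g s)
  | app M N => app (map g M) (map g N)
  | lam A M => lam (map g A) (map g M)
  | pi A B => pi (map g A) (map g B)

end Tm

open Tm

/-- One step of beta reduction, allowed in every subexpression (domains included). -/
inductive Beta {S : Type u} : Tm S → Tm S → Prop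
  | beta (A M N : Tm S) : Beta (app (lam A M) N) (subst N 0 M)
  | appL {M M' : Tm S} (N : Tm S) : Beta M M' → Beta (app M N) (app M' N)
  | appR (M : Tm S) {N N' : Tm S} : Beta N N' → Beta (app M N) (app M N')
  | lamD {A A' : Tm S} (M : Tm S) : Beta A A' → Beta (lam A M) (lam A' M)
  | lamB (A : Tm S) {M M' : Tm S} : Beta M M' → Beta (lam A M) (lam A M')
  | piD {A A' : Tm S} (B : Tm S) : Beta A A' → Beta (pi A B) (pi A' B)
  | piB (A : Tm S) {B B' : Tm S} : Beta B B' → Beta (pi A B) (pi A B')

/-- Beta conversion: the equivalence relation generated by `Beta`. -/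
def Conv {S : Type u} : Tm S → Tm S → Prop := Relation.EqvGen Beta

/-- The typing relation of the pure type system with axioms `Ax` and rules `Ru`.
A context is a list of expressions, the most recently declared variable first. -/
inductive Typing {S : Type u} (Ax : S → S → Prop) (Ru : S → S → S → Prop) :
    List (Tm S) → Tm S → Tm S → Prop
  | ax {s₁ s₂ : S} : Ax s₁ s₂ → Typing Ax Ru [] (sort s₁) (sort s₂)
  | var {Γ : List (Tm S)} {A : Tm S} {s : S} :
      Typing Ax Ru Γ A (sort s) → Typing Ax Ru (A :: Γ) (var 0) (lift 0 A)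
  | weak {Γ : List (Tm S)} {M B A : Tm S} {s : S} :
      Typing Ax Ru Γ M B → Typing Ax Ru Γ A (sort s) →
      Typing Ax Ru (A :: Γ) (lift 0 M) (lift 0 B)
  | prod {Γ : List (Tm S)} {A B : Tm S} {s₁ s₂ s₃ : S} :
      Ru s₁ s₂ s₃ → Typing Ax Ru Γ A (sort s₁) → Typing Ax Ru (A :: Γ) B (sort s₂) →
      Typing Ax Ru Γ (pi A B) (sort s₃)
  | abs {Γ : List (Tm S)} {A M B : Tm S} {s : S} :
      Typing Ax Ru (A :: Γ) M B → Typing Ax Ru Γ (pi A B) (sort s) →
      Typing Ax Ru Γ (lam A M) (pi A B)
  | app {Γ : List (Tm S)} {M N A B : Tm S} :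
      Typing Ax Ru Γ M (pi A B) → Typing Ax Ru Γ N A →
      Typing Ax Ru Γ (app M N) (subst N 0 B)
  | conv {Γ : List (Tm S)} {M A B : Tm S} {s : S} :
      Typing Ax Ru Γ M A → Typing Ax Ru Γ B (sort s) → Conv A B →
      Typing Ax Ru Γ M B

/-- An expression is legal if it is the subject or the type of a derivable judgment. -/
def Legal {S : Type u} (Ax : S → S → Prop) (Ru : S → S → S → Prop) (M : Tm S) : Prop :=
  ∃ (Γ : List (Tm S)) (N : Tm S), Typing Ax Ru Γ M N ∨ Typing Ax Ru Γ N M

/-- `M` reduces to a beta normal form. -/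
def HasNF {S : Type u} (M : Tm S) : Prop :=
  ∃ N : Tm S, Relation.ReflTransGen Beta M N ∧ ∀ P : Tm S, ¬ Beta N P

/-- `M` starts an infinite beta reduction sequence. -/
def Diverges {S : Type u} (M : Tm S) : Prop :=
  ∃ f : ℕ → Tm S, f 0 = M ∧ ∀ n : ℕ, Beta (f n) (f (n + 1))

/-- Weak normalization of the pure type system `(S, Ax, Ru)`. -/
def WN {S : Type u} (Ax : S → S → Prop) (Ru : S → S → S → Prop) : Prop :=
  ∀ M : Tm S, Legal Ax Ru M → HasNF M

/-- Strong normalization of the pure type system `(S, Ax, Ru)`. -/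
def SN {S : Type u} (Ax : S → S → Prop) (Ru : S → S → S → Prop) : Prop :=
  ∀ M : Tm S, Legal Ax Ru M → ¬ Diverges M

namespace Tm

variable {S : Type u} {T : Type v}

theorem map_lift (g : S → T) (M : Tm S) : ∀ c : ℕ, map g (lift c M) = lift c (map g M) := by
  induction M with
  | var n => intro c; simp only [lift, map]; split_ifs <;> simp [map]
  | sort s => intro c; simp [lift, map]
  | app M N ihM ihN => intro c; simp [lift, map, ihM, ihN]
  | lam A M ihA ihM => intro c; simp [lift, map, ihA, ihM]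
  | pi A B ihA ihB => intro c; simp [lift, map, ihA, ihB]

theorem map_subst (g : S → T) (M : Tm S) :
    ∀ (N : Tm S) (k : ℕ), map g (subst N k M) = subst (map g N) k (map g M) := by
  induction M with
  | var n => intro N k; simp only [subst, map]; split_ifs <;> simp [map]
  | sort s => intro N k; simp [subst, map]
  | app M P ihM ihP => intro N k; simp [subst, map, ihM, ihP]
  | lam A M ihA ihM => intro N k; simp [subst, map, ihA, ihM, map_lift]
  | pi A B ihA ihB => intro N k; simp [subst, map, ihA, ihB, map_lift]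

end Tm

variable {S : Type u} {T : Type v}

theorem Beta.map (g : S → T) {M N : Tm S} (h : Beta M N) : Beta (Tm.map g M) (Tm.map g N) := by
  induction h with
  | beta A M N => simp only [Tm.map, Tm.map_subst]; exact Beta.beta _ _ _
  | appL N _ ih => exact Beta.appL _ ih
  | appR M _ ih => exact Beta.appR _ ih
  | lamD M _ ih => exact Beta.lamD _ ih
  | lamB A _ ih => exact Beta.lamB _ ih
  | piD B _ ih => exact Beta.piD _ ih
  | piB A _ ih => exact Beta.piB _ ih

theorem Beta.of_map (g : S → T) : ∀ {M : Tm S} {P : Tm T}, Beta (Tm.map g M) P →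
    ∃ N : Tm S, P = Tm.map g N ∧ Beta M N := by
  intro M
  induction M with
  | var n => intro P h; simp only [Tm.map] at h; cases h
  | sort s => intro P h; simp only [Tm.map] at h; cases h
  | app M N ihM ihN =>
    intro P h
    simp only [Tm.map] at h
    generalize hM : Tm.map g M = M' at h
    cases h with
    | beta A B _ =>
      cases M with
      | lam A0 B0 =>
        simp only [Tm.map, Tm.lam.injEq] at hM
        obtain ⟨rfl, rfl⟩ := hM
        exact ⟨subst N 0 B0, by rw [Tm.map_subst], Beta.beta _ _ _⟩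
      | var n => simp [Tm.map] at hM
      | sort s => simp [Tm.map] at hM
      | app a b => simp [Tm.map] at hM
      | pi a b => simp [Tm.map] at hM
    | appL _ h' =>
      subst hM
      obtain ⟨N', rfl, hN'⟩ := ihM h'
      exact ⟨Tm.app N' N, rfl, Beta.appL _ hN'⟩
    | appR _ h' =>
      subst hM
      obtain ⟨N', rfl, hN'⟩ := ihN h'
      exact ⟨Tm.app M N', rfl, Beta.appR _ hN'⟩
  | lam A M ihA ihM =>
    intro P h
    simp only [Tm.map] at h
    cases h with
    | lamD _ h' =>
      obtain ⟨N', rfl, hN'⟩ := ihA h'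
      exact ⟨Tm.lam N' M, rfl, Beta.lamD _ hN'⟩
    | lamB _ h' =>
      obtain ⟨N', rfl, hN'⟩ := ihM h'
      exact ⟨Tm.lam A N', rfl, Beta.lamB _ hN'⟩
  | pi A M ihA ihM =>
    intro P h
    simp only [Tm.map] at h
    cases h with
    | piD _ h' =>
      obtain ⟨N', rfl, hN'⟩ := ihA h'
      exact ⟨Tm.pi N' M, rfl, Beta.piD _ hN'⟩
    | piB _ h' =>
      obtain ⟨N', rfl, hN'⟩ := ihM h'
      exact ⟨Tm.pi A N', rfl, Beta.piB _ hN'⟩

theorem Conv.map (g : S → T) {M N : Tm S} (h : Conv M N) : Conv (Tm.map g M) (Tm.map g N) := by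
  induction h with
  | rel _ _ h => exact Relation.EqvGen.rel _ _ (h.map g)
  | refl _ => exact Relation.EqvGen.refl _
  | symm _ _ _ ih => exact Relation.EqvGen.symm _ _ ih
  | trans _ _ _ _ _ ih₁ ih₂ => exact Relation.EqvGen.trans _ _ _ ih₁ ih₂

/-- A morphism of specifications transports derivations. -/
theorem Typing.map {Ax : S → S → Prop} {Ru : S → S → S → Prop}
    {Ax' : T → T → Prop} {Ru' : T → T → T → Prop} (g : S → T)
    (hA : ∀ s t, Ax s t → Ax' (g s) (g t)) (hR : ∀ s t r, Ru s t r → Ru' (g s) (g t) (g r))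
    {Γ : List (Tm S)} {M B : Tm S} (h : Typing Ax Ru Γ M B) :
    Typing Ax' Ru' (Γ.map (Tm.map g)) (Tm.map g M) (Tm.map g B) := by
  induction h with
  | ax h => exact Typing.ax (hA _ _ h)
  | var _ ih => simp only [List.map_cons, Tm.map_lift]; exact Typing.var ih
  | weak _ _ ih₁ ih₂ => simp only [List.map_cons, Tm.map_lift]; exact Typing.weak ih₁ ih₂
  | prod hr _ _ ih₁ ih₂ => exact Typing.prod (hR _ _ _ hr) ih₁ ih₂
  | abs _ _ ih₁ ih₂ => exact Typing.abs ih₁ ih₂
  | app _ _ ih₁ ih₂ => simp only [Tm.map_subst]; exact Typing.app ih₁ ih₂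
  | conv _ _ hc ih₁ ih₂ => exact Typing.conv ih₁ ih₂ (hc.map g)

theorem Legal.map {Ax : S → S → Prop} {Ru : S → S → S → Prop}
    {Ax' : T → T → Prop} {Ru' : T → T → T → Prop} (g : S → T)
    (hA : ∀ s t, Ax s t → Ax' (g s) (g t)) (hR : ∀ s t r, Ru s t r → Ru' (g s) (g t) (g r))
    {M : Tm S} (h : Legal Ax Ru M) : Legal Ax' Ru' (Tm.map g M) := by
  obtain ⟨Γ, N, h | h⟩ := h
  · exact ⟨_, _, Or.inl (h.map g hA hR)⟩
  · exact ⟨_, _, Or.inr (h.map g hA hR)⟩

theorem Diverges.map (g : S → T) {M : Tm S} (h : Diverges M) : Diverges (Tm.map g M) := by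
  obtain ⟨f, rfl, hf⟩ := h
  exact ⟨fun n => Tm.map g (f n), rfl, fun n => (hf n).map g⟩

theorem HasNF.of_map (g : S → T) {M : Tm S} (h : HasNF (Tm.map g M)) : HasNF M := by
  obtain ⟨N, hN, hnf⟩ := h
  have key : ∀ P : Tm T, Relation.ReflTransGen Beta (Tm.map g M) P →
      ∃ Q : Tm S, P = Tm.map g Q ∧ Relation.ReflTransGen Beta M Q := by
    intro P hP
    induction hP with
    | refl => exact ⟨M, rfl, Relation.ReflTransGen.refl⟩
    | tail _ hstep ih =>
      obtain ⟨Q, rfl, hQ⟩ := ih
      obtain ⟨Q', rfl, hQ'⟩ := Beta.of_map g hstep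
      exact ⟨Q', rfl, hQ.tail hQ'⟩
  obtain ⟨Q, rfl, hQ⟩ := key N hN
  exact ⟨Q, hQ, fun P hP => hnf _ (hP.map g)⟩

/-- Weak normalization is reflected along morphisms of specifications. -/
theorem WN.of_morphism {Ax : S → S → Prop} {Ru : S → S → S → Prop}
    {Ax' : T → T → Prop} {Ru' : T → T → T → Prop} (g : S → T)
    (hA : ∀ s t, Ax s t → Ax' (g s) (g t)) (hR : ∀ s t r, Ru s t r → Ru' (g s) (g t) (g r))
    (h : WN Ax' Ru') : WN Ax Ru :=
  fun _ hM => HasNF.of_map g (h _ (hM.map g hA hR))

/-- Strong normalization is reflected along morphisms of specifications. -/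
theorem SN.of_morphism {Ax : S → S → Prop} {Ru : S → S → S → Prop}
    {Ax' : T → T → Prop} {Ru' : T → T → T → Prop} (g : S → T)
    (hA : ∀ s t, Ax s t → Ax' (g s) (g t)) (hR : ∀ s t r, Ru s t r → Ru' (g s) (g t) (g r))
    (h : SN Ax' Ru') : SN Ax Ru :=
  fun _ hM hd => h _ (hM.map g hA hR) (hd.map g)

end Vale.Agent.P340
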